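import Vale.Agent.P372.H289.Merge
import Vale.Agent.P372.FULL.Link
import Vale.Agent.P372.H507.Socket
import Vale.Agent.P372.H897.SN
import Vale.Agent.P372.Swap.Link2

/-! The composition of the merge with the entangled operator and the final link. -/

open Matrix Kronecker
open scoped ComplexOrder

namespace Vale.Agent.P372.H289

theorem zero :
    ∃ (a b : ℕ) (ρ : Matrix (Fin a × Fin b) (Fin a × Fin b) ℂ), ρ.PosSemidef ∧ ρ.trace = 1 ∧
      ¬ IsSep ρ ∧ ∀ (E : Type) [Fintype E] [DecidableEq E] (Ψ : Matrix (Fin a × Fin b) E ℂ),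
        Ψ * Ψᴴ = ρ → distillableKey Ψ = 0 := by
  obtain ⟨m, Rh, h0, h2, hs⟩ := H507.socketE'
  rw [H897.fm_tk] at hs
  have a : (0 : ℂ) ≤ 2 / 3 := by
    have h : (0 : ℂ) ≤ ((2 / 3 : ℝ) : ℂ) := by exact_mod_cast (by norm_num : (0 : ℝ) ≤ 2 / 3)
    rwa [show ((2 / 3 : ℝ) : ℂ) = 2 / 3 by push_cast; rfl] at h
  have b : (0 : ℂ) ≤ 1 / 3 := by
    have h : (0 : ℂ) ≤ ((1 / 3 : ℝ) : ℂ) := by exact_mod_cast (by norm_num : (0 : ℝ) ≤ 1 / 3)
    rwa [show ((1 / 3 : ℝ) : ℂ) = 1 / 3 by push_cast; rfl] at h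
  have hR := (PosSemidef.one.smul a).add
    ((H897.ap_psd ((H897.SF_tk m).kt (H897.SF_tk m)).choi h0).smul b)
  exact FULL.link _ hR hs (H740.noTest_of_corner (fun n => Swap.tpow_psd n hR) fun n =>
    merge (H897.SF_tk m) (H897.SF_tk m) H897.SD_tk H897.SD_tk H897.UN_tk H897.UN_tk H897.HM_tk
      H897.HM_tk h0 h2 n)

end Vale.Agent.P372.H289
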