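import Vale.Agent.P372.H289.Sites
import Vale.Agent.P372.Swap.Core

/-!
# KEY: the post-processing of the couplings and the exchange

For flags `τ : ι → Bool`, `vk Rh τ` keeps the site with weight `2/3` (`false`) or replaces it
against `Rh` with weight `1/3` (`true`).  Hermitian couplings `Z τ` of `(V τ X₀, V τ X₁)` give
couplings of the local maps `V' σ`, to which the exchange inequality applies.
-/

set_option autoImplicit false
set_option linter.unusedSectionVars false

open Matrix Finset Kronecker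
open scoped ComplexOrder

namespace Vale.Agent.P372.H289

section CP

variable {ι C κ : Type} [Fintype ι] [DecidableEq ι] [Fintype C] [DecidableEq C] [Fintype κ]
  [DecidableEq κ]

/-- the Choi matrix of a kernel -/
def choi (k : Ker C) : Matrix (C × C) (C × C) ℂ := fun p q => k p.1 q.1 p.2 q.2

theorem exists_gram {D : Type} [Fintype D] [DecidableEq D] {M : Matrix D D ℂ}
    (h : M.PosSemidef) : ∃ S : Matrix D D ℂ, M = Sᴴ * S := by
  open scoped MatrixOrder in
  exact CStarAlgebra.nonneg_iff_eq_star_mul_self.mp h.nonneg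

/-- the Kraus operators -/
def kr (S : ι → Matrix (C × C) (C × C) ℂ) (m : ι → C × C) : Matrix (ι → C) (ι → C) ℂ :=
  fun x x' => ∏ i, star (S i (m i) (x i, x' i))

theorem pmap_kraus (k : ι → Ker C) (hk : ∀ i, (choi (k i)).PosSemidef) :
    ∃ K : (ι → C × C) → Matrix (ι → C) (ι → C) ℂ,
      ∀ X, pmap k X = ∑ m, K m * X * (K m)ᴴ := by
  choose S hS using fun i => exists_gram (hk i)
  refine ⟨kr S, fun X => ?_⟩
  ext x y
  rw [Matrix.sum_apply]
  simp only [pmap, Matrix.mul_apply, conjTranspose_apply, sum_mul, kr]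
  have h1 : ∀ x' y' : ι → C, (∏ i, k i (x i) (y i) (x' i) (y' i)) =
      ∑ m : ι → C × C, (∏ i, star (S i (m i) (x i, x' i))) * ∏ i, S i (m i) (y i, y' i) := by
    intro x' y'
    have h2 : ∀ i, k i (x i) (y i) (x' i) (y' i) =
        ∑ a : C × C, star (S i a (x i, x' i)) * S i a (y i, y' i) := by
      intro i
      have h3 := congr_fun (congr_fun (hS i) (x i, x' i)) (y i, y' i)
      rw [Matrix.mul_apply] at h3
      exact h3
    rw [prod_congr rfl fun i _ => h2 i, Finset.prod_univ_sum, Fintype.piFinset_univ]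
    exact sum_congr rfl fun m _ => prod_mul_distrib
  simp only [h1, sum_mul]
  rw [sum_comm]
  have h4 : ∀ y' : ι → C, ∑ x' : ι → C, ∑ m : ι → C × C,
      (∏ i, star (S i (m i) (x i, x' i))) * (∏ i, S i (m i) (y i, y' i)) * X x' y' =
      ∑ m : ι → C × C, ∑ x' : ι → C,
      (∏ i, star (S i (m i) (x i, x' i))) * (∏ i, S i (m i) (y i, y' i)) * X x' y' :=
    fun y' => sum_comm
  rw [sum_congr rfl fun y' _ => h4 y', sum_comm]
  refine sum_congr rfl fun m _ => sum_congr rfl fun y' _ => sum_congr rfl fun x' _ => ?_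
  rw [star_prod]
  simp only [star_star]
  ring

theorem pmap_psd (k : ι → Ker C) (hk : ∀ i, (choi (k i)).PosSemidef)
    {X : Matrix (ι → C) (ι → C) ℂ} (hX : X.PosSemidef) : (pmap k X).PosSemidef := by
  obtain ⟨K, hK⟩ := pmap_kraus k hk
  rw [hK]
  exact posSemidef_sum _ fun m _ => hX.mul_mul_conjTranspose_same (K m)

theorem pmap_blocks (k : ι → Ker C) (hk : ∀ i, (choi (k i)).PosSemidef)
    {X Z Z' Y : Matrix (ι → C) (ι → C) ℂ} (h : (fromBlocks X Z Z' Y).PosSemidef) :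
    (fromBlocks (pmap k X) (pmap k Z) (pmap k Z') (pmap k Y)).PosSemidef := by
  obtain ⟨K, hK⟩ := pmap_kraus k hk
  have h1 : fromBlocks (pmap k X) (pmap k Z) (pmap k Z') (pmap k Y) =
      ∑ m, fromBlocks (K m) 0 0 (K m) * fromBlocks X Z Z' Y * (fromBlocks (K m) 0 0 (K m))ᴴ := by
    simp only [hK, fromBlocks_conjTranspose, fromBlocks_multiply, conjTranspose_zero,
      Matrix.mul_zero, Matrix.zero_mul, add_zero, zero_add]
    ext (i | i) (j | j) <;> simp [Matrix.sum_apply]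
  rw [h1]
  exact posSemidef_sum _ fun m _ => h.mul_mul_conjTranspose_same _

theorem choi_idk : (choi (idk : Ker C)).PosSemidef := by
  have h1 : choi (idk : Ker C) =
      (replicateCol Unit fun p : C × C => if p.1 = p.2 then (1 : ℂ) else 0) *
      (replicateCol Unit fun p : C × C => if p.1 = p.2 then (1 : ℂ) else 0)ᴴ := by
    ext p q
    simp only [choi, idk, Matrix.mul_apply, replicateCol_apply, conjTranspose_apply,
      Finset.univ_unique, sum_singleton]
    by_cases h : p.1 = p.2 <;> by_cases h' : q.1 = q.2 <;> simp [h, h']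
  rw [h1]
  exact posSemidef_self_mul_conjTranspose _

theorem choi_opk {Q : Matrix C C ℂ} (hQ : Q.PosSemidef) : (choi (opk Q)).PosSemidef := by
  have h1 : choi (opk Q) = ((Fintype.card C : ℕ) : ℂ)⁻¹ • ((1 : Matrix C C ℂ) ⊗ₖ Qᵀ) := by
    ext p q
    simp only [choi, opk, Matrix.smul_apply, kroneckerMap_apply, Matrix.one_apply,
      transpose_apply, smul_eq_mul]
    by_cases h : p.1 = q.1 <;> simp [h]
  rw [h1]
  refine (PosSemidef.one.kronecker hQ.transpose).smul ?_
  rw [← Complex.ofReal_natCast, ← Complex.ofReal_inv]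
  exact_mod_cast inv_nonneg.mpr (Nat.cast_nonneg _)

theorem choi_smul (c : ℂ) (k : Ker C) : choi (c • k) = c • choi k := rfl

theorem choi_zero : choi (0 : Ker C) = 0 := rfl

/-- sums over functions -/
theorem pmap_univ (f : ι → κ → Ker C) (X : Matrix (ι → C) (ι → C) ℂ) :
    ∑ τ : ι → κ, pmap (fun i => f i (τ i)) X = pmap (fun i => ∑ t, f i t) X := by
  ext x y
  rw [Matrix.sum_apply]
  simp only [pmap]
  rw [sum_comm]
  refine sum_congr rfl fun x' _ => ?_
  rw [sum_comm]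
  refine sum_congr rfl fun y' _ => ?_
  rw [← sum_mul]
  congr 1
  have h1 : ∀ i, (∑ t, f i t) (x i) (y i) (x' i) (y' i) =
      ∑ t, f i t (x i) (y i) (x' i) (y' i) := by
    intro i
    simp only [Finset.sum_apply]
  rw [prod_congr rfl fun i _ => h1 i, Finset.prod_univ_sum, Fintype.piFinset_univ]

theorem tp_univ (f : ι → κ → Matrix C C ℂ) :
    ∑ τ : ι → κ, tp (fun i => f i (τ i)) = tp (fun i => ∑ t, f i t) := by
  ext x y
  rw [Matrix.sum_apply]
  simp only [tp, Matrix.sum_apply]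
  rw [Finset.prod_univ_sum, Fintype.piFinset_univ]

theorem tp_one : tp (fun _ : ι => (1 : Matrix C C ℂ)) = 1 := by
  ext x y
  simp only [tp, Matrix.one_apply]
  by_cases h : x = y
  · subst h
    simp
  · rw [if_neg h]
    obtain ⟨i, hi⟩ := Function.ne_iff.mp h
    exact prod_eq_zero (mem_univ i) (if_neg hi)

theorem tp_psd {M : ι → Matrix C C ℂ} (h : ∀ i, (M i).PosSemidef) : (tp M).PosSemidef := by
  choose S hS using fun i => exists_gram (h i)
  have h1 : tp M = (tp S)ᴴ * tp S := by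
    ext x y
    simp only [tp, Matrix.mul_apply, conjTranspose_apply, star_prod]
    have h2 : ∀ i, M i (x i) (y i) = ∑ a, star (S i a (x i)) * S i a (y i) := by
      intro i
      have h3 := congr_fun (congr_fun (hS i) (x i)) (y i)
      rw [Matrix.mul_apply] at h3
      exact h3
    rw [prod_congr rfl fun i _ => h2 i, Finset.prod_univ_sum, Fintype.piFinset_univ]
    exact sum_congr rfl fun m _ => prod_mul_distrib
  rw [h1]
  exact posSemidef_conjTranspose_mul_self _

end CP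

section Flags

variable {ι C : Type} [Fintype ι] [DecidableEq ι] [Fintype C] [DecidableEq C]

/-- before: keep (weight `2/3`) or replace against `Rh` (weight `1/3`) -/
noncomputable def vk (Rh : Matrix C C ℂ) : Bool → Ker C
  | false => (2 / 3 : ℂ) • idk
  | true => (1 / 3 : ℂ) • opk Rh

/-- after: replace against `1` (weight `2/3`) or keep (weight `1/3`) -/
noncomputable def vk' : Bool → Ker C
  | false => (2 / 3 : ℂ) • opk 1
  | true => (1 / 3 : ℂ) • idk

/-- the post-processing -/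
noncomputable def lk (Rh : Matrix C C ℂ) : Bool → Bool → Ker C
  | false, false => (1 / 2 : ℂ) • opk ((2 : ℂ) • 1 - Rh)
  | false, true => opk 1
  | true, false => (1 / 2 : ℂ) • idk
  | true, true => 0

/-- the weights after -/
def wk (Rh : Matrix C C ℂ) : Bool → Matrix C C ℂ
  | false => 1
  | true => Rh

theorem cmp_smul_left (c : ℂ) (k k' : Ker C) : cmp (c • k) k' = c • cmp k k' := by
  funext x y x'' y''
  simp only [cmp, Pi.smul_apply, smul_eq_mul, mul_sum, mul_assoc]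

theorem cmp_smul_right (c : ℂ) (k k' : Ker C) : cmp k (c • k') = c • cmp k k' := by
  funext x y x'' y''
  simp only [cmp, Pi.smul_apply, smul_eq_mul, mul_sum]
  exact sum_congr rfl fun _ _ => sum_congr rfl fun _ _ => by ring

theorem cmp_zero_left (k : Ker C) : cmp 0 k = 0 := by
  funext x y x'' y''
  simp [cmp]

theorem cmp_opk_one (Q : Matrix C C ℂ) : cmp (opk 1) (opk Q) = (opk Q : Ker C) := by
  funext x y x'' y''
  have hC : ((Fintype.card C : ℕ) : ℂ) ≠ 0 := by
    have : Nonempty C := ⟨x⟩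
    exact_mod_cast Fintype.card_ne_zero
  simp only [cmp, opk, Matrix.one_apply]
  have h1 : ∀ a : C, ∑ b, ((if x = y then ((Fintype.card C : ℕ) : ℂ)⁻¹ else 0) *
      (if b = a then (1 : ℂ) else 0)) *
      ((if a = b then ((Fintype.card C : ℕ) : ℂ)⁻¹ else 0) * Q y'' x'') =
      (if x = y then ((Fintype.card C : ℕ) : ℂ)⁻¹ else 0) *
        (((Fintype.card C : ℕ) : ℂ)⁻¹ * Q y'' x'') := by
    intro a
    rw [sum_eq_single a]
    · simp
    · intro b _ hb
      simp [hb]
    · simp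
  rw [sum_congr rfl fun a _ => h1 a, sum_const, card_univ, nsmul_eq_mul]
  field_simp

theorem sum_lk_vk (Rh : Matrix C C ℂ) (s : Bool) :
    ∑ t, cmp (lk Rh s t) (vk Rh t) = (vk' s : Ker C) := by
  rw [Fintype.sum_bool]
  cases s
  · simp only [lk, vk, vk', cmp_smul_right, cmp_idk_right, cmp_opk_one]
    rw [smul_smul, show (2 / 3 : ℂ) * (1 / 2) = 1 / 3 by norm_num, ← smul_add, ← opk_add,
      add_sub_cancel, opk_smul, smul_smul]
    norm_num
  · simp only [lk, vk, vk', cmp_smul_right, cmp_idk_right, cmp_zero_left, smul_zero, zero_add]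
    rw [smul_smul]
    norm_num

theorem adj_smul (c : ℂ) (k : Ker C) (M : Matrix C C ℂ) : adj (c • k) M = c • adj k M := by
  ext y' x'
  simp only [adj, Pi.smul_apply, Matrix.smul_apply, smul_eq_mul, mul_sum]
  exact sum_congr rfl fun _ _ => sum_congr rfl fun _ _ => by ring

theorem adj_zero (M : Matrix C C ℂ) : adj (0 : Ker C) M = 0 := by
  ext y' x'
  simp [adj]

theorem sum_adj_lk (Rh : Matrix C C ℂ) (t : Bool) :
    ∑ s, adj (lk Rh s t) (wk Rh s) = 1 := by
  rw [Fintype.sum_bool]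
  cases t
  · simp only [lk, wk, adj_smul, adj_idk, adj_opk_one]
    rw [← smul_add, add_sub_cancel, smul_smul]
    norm_num
  · simp only [lk, wk, adj_zero, adj_opk_one, zero_add]

theorem sum_adj_vk' (Rh : Matrix C C ℂ) :
    ∑ s, adj (vk' s) (wk Rh s) = (2 / 3 : ℂ) • 1 + (1 / 3 : ℂ) • Rh := by
  rw [Fintype.sum_bool]
  simp only [vk', wk, adj_smul, adj_idk, adj_opk_one]
  rw [add_comm]

theorem choi_lk {Rh : Matrix C C ℂ} (h2 : ((2 : ℂ) • 1 - Rh).PosSemidef) (s t : Bool) :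
    (choi (lk Rh s t)).PosSemidef := by
  have hh : (0 : ℂ) ≤ 1 / 2 := by
    rw [show (1 / 2 : ℂ) = ((1 / 2 : ℝ) : ℂ) by norm_num]
    exact_mod_cast (by norm_num : (0 : ℝ) ≤ 1 / 2)
  cases s <;> cases t
  · exact (choi_opk h2).smul hh
  · exact choi_opk PosSemidef.one
  · exact choi_idk.smul hh
  · exact PosSemidef.zero

/-- the post-processed couplings -/
noncomputable def post (Rh : Matrix C C ℂ) (Z : (ι → Bool) → Matrix (ι → C) (ι → C) ℂ)
    (σ : ι → Bool) : Matrix (ι → C) (ι → C) ℂ :=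
  ∑ τ, pmap (fun i => lk Rh (σ i) (τ i)) (Z τ)

theorem post_blocks {Rh : Matrix C C ℂ} (h2 : ((2 : ℂ) • 1 - Rh).PosSemidef)
    {X Y : Matrix (ι → C) (ι → C) ℂ} {Z : (ι → Bool) → Matrix (ι → C) (ι → C) ℂ}
    (h : ∀ τ, (fromBlocks (pmap (fun i => vk Rh (τ i)) X) (Z τ) (Z τ)
      (pmap (fun i => vk Rh (τ i)) Y)).PosSemidef) (σ : ι → Bool) :
    (fromBlocks (pmap (fun i => vk' (σ i)) X) (post Rh Z σ) (post Rh Z σ)
      (pmap (fun i => vk' (σ i)) Y)).PosSemidef := by
  have hX : ∀ X : Matrix (ι → C) (ι → C) ℂ, pmap (fun i => vk' (σ i)) X =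
      ∑ τ : ι → Bool, pmap (fun i => lk Rh (σ i) (τ i)) (pmap (fun i => vk Rh (τ i)) X) := by
    intro X
    simp only [pmap_pmap]
    rw [pmap_univ (fun i t => cmp (lk Rh (σ i) t) (vk Rh t))]
    simp only [sum_lk_vk]
  have h1 : fromBlocks (pmap (fun i => vk' (σ i)) X) (post Rh Z σ) (post Rh Z σ)
      (pmap (fun i => vk' (σ i)) Y) = ∑ τ : ι → Bool,
      fromBlocks (pmap (fun i => lk Rh (σ i) (τ i)) (pmap (fun i => vk Rh (τ i)) X))
        (pmap (fun i => lk Rh (σ i) (τ i)) (Z τ)) (pmap (fun i => lk Rh (σ i) (τ i)) (Z τ))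
        (pmap (fun i => lk Rh (σ i) (τ i)) (pmap (fun i => vk Rh (τ i)) Y)) := by
    rw [hX X, hX Y]
    ext (i | i) (j | j) <;> simp [Matrix.sum_apply, post]
  rw [h1]
  exact posSemidef_sum _ fun τ _ => pmap_blocks _ (fun i => choi_lk h2 _ _) (h τ)

theorem post_trace (Rh : Matrix C C ℂ) (Z : (ι → Bool) → Matrix (ι → C) (ι → C) ℂ) :
    ∑ σ : ι → Bool, (tp (fun i => wk Rh (σ i)) * post Rh Z σ).trace = ∑ τ, (Z τ).trace := by
  simp only [post, Matrix.mul_sum, trace_sum, trace_tp_pmap]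
  rw [sum_comm]
  refine sum_congr rfl fun τ _ => ?_
  rw [← trace_sum, ← Matrix.sum_mul,
    tp_univ (fun i s => adj (lk Rh s (τ i)) (wk Rh s))]
  simp only [sum_adj_lk, tp_one, Matrix.one_mul]

end Flags

section Prod

variable {ι A B : Type} [Fintype ι] [DecidableEq ι] [Fintype A] [DecidableEq A]
  [Fintype B] [DecidableEq B]

/-- the index of the pair of words -/
def sp (f : ι → A × B) : (ι → A) × (ι → B) := (fun i => (f i).1, fun i => (f i).2)

/-- matrices of the pairs of words as matrices of the words of pairs -/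
def rx (M : Matrix ((ι → A) × (ι → B)) ((ι → A) × (ι → B)) ℂ) :
    Matrix (ι → A × B) (ι → A × B) ℂ := M.submatrix sp sp

/-- words of pairs are pairs of words -/
def spe : (ι → A × B) ≃ (ι → A) × (ι → B) := Equiv.arrowProdEquivProdArrow ι (fun _ => A) fun _ => B

theorem spe_coe : (spe : (ι → A × B) → (ι → A) × (ι → B)) = sp := rfl

/-- the local replacement -/
noncomputable def dk {C : Type} [Fintype C] [DecidableEq C] : Bool → Ker C
  | false => opk 1
  | true => idk

/-- the weight of the flag -/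
noncomputable def ck : Bool → ℂ
  | false => 2 / 3
  | true => 1 / 3

theorem vk'_split (s : Bool) (p q p' q' : A × B) : (vk' s : Ker (A × B)) p q p' q' =
    ck s * (dk s : Ker A) p.1 q.1 p'.1 q'.1 * (dk s : Ker B) p.2 q.2 p'.2 q'.2 := by
  obtain ⟨a, b⟩ := p
  obtain ⟨a1, b1⟩ := q
  obtain ⟨a2, b2⟩ := p'
  obtain ⟨a3, b3⟩ := q'
  cases s
  · simp only [vk', dk, ck, opk, Pi.smul_apply, smul_eq_mul, Fintype.card_prod, Matrix.one_apply,
      Prod.mk.injEq, Nat.cast_mul, mul_inv]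
    by_cases h1 : a = a1 <;> by_cases h2 : b = b1 <;> by_cases h3 : a3 = a2 <;>
      by_cases h4 : b3 = b2 <;> simp [h1, h2, h3, h4, mul_assoc]
  · simp only [vk', dk, ck, idk, Pi.smul_apply, smul_eq_mul, Prod.mk.injEq]
    by_cases h1 : a = a2 <;> by_cases h2 : b = b2 <;> by_cases h3 : a1 = a3 <;>
      by_cases h4 : b1 = b3 <;> simp [h1, h2, h3, h4]

theorem sum_spe {M : Type*} [AddCommMonoid M] (f : (ι → A) × (ι → B) → M) :
    ∑ x : ι → A × B, f (sp x) = ∑ a, ∑ b, f (a, b) := by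
  rw [← Fintype.sum_prod_type]
  exact (spe (ι := ι) (A := A) (B := B)).sum_comp f

theorem sum4_mul {M N : Type*} [Fintype M] [Fintype N] (f : M → M → ℂ) (g : N → N → ℂ) :
    ∑ a, ∑ b, ∑ a', ∑ b', f a a' * g b b' = (∑ a, ∑ a', f a a') * ∑ b, ∑ b', g b b' := by
  rw [Finset.sum_mul_sum]
  exact sum_congr rfl fun a _ => sum_congr rfl fun b _ => (Finset.sum_mul_sum _ _ _ _).symm

theorem pmap_split (σ : ι → Bool) (α : Matrix (ι → A) (ι → A) ℂ) (β : Matrix (ι → B) (ι → B) ℂ) :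
    pmap (fun i => vk' (σ i)) (rx (α ⊗ₖ β)) =
      rx (((∏ i, ck (σ i)) • pmap (fun i => dk (σ i)) α) ⊗ₖ pmap (fun i => dk (σ i)) β) := by
  ext x y
  set G : (ι → A) × (ι → B) → (ι → A) × (ι → B) → ℂ := fun p q =>
    (∏ i, ck (σ i)) * (∏ i, (dk (σ i) : Ker A) (x i).1 (y i).1 (p.1 i) (q.1 i)) *
      (∏ i, (dk (σ i) : Ker B) (x i).2 (y i).2 (p.2 i) (q.2 i)) * (α p.1 q.1 * β p.2 q.2) with hG
  have h1 : pmap (fun i => vk' (σ i)) (rx (α ⊗ₖ β)) x y =
      ∑ x' : ι → A × B, ∑ y' : ι → A × B, G (sp x') (sp y') := by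
    simp only [pmap, vk'_split, prod_mul_distrib]
    rfl
  rw [h1]
  have h2 : ∀ p, ∑ y' : ι → A × B, G p (sp y') = ∑ a, ∑ b, G p (a, b) := fun p => sum_spe (G p)
  simp only [h2]
  rw [sum_spe fun p => ∑ a, ∑ b, G p (a, b)]
  have h3 : rx (((∏ i, ck (σ i)) • pmap (fun i => dk (σ i)) α) ⊗ₖ
      pmap (fun i => dk (σ i)) β) x y =
      (∏ i, ck (σ i)) * ((∑ a, ∑ a', (∏ i, (dk (σ i) : Ker A) (x i).1 (y i).1 (a i) (a' i)) *
        α a a') * ∑ b, ∑ b', (∏ i, (dk (σ i) : Ker B) (x i).2 (y i).2 (b i) (b' i)) *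
        β b b') := by
    simp only [rx, submatrix_apply, kroneckerMap_apply, Matrix.smul_apply, smul_eq_mul, sp, pmap,
      mul_assoc]
  rw [h3, ← sum4_mul]
  simp only [mul_sum, hG]
  exact sum_congr rfl fun a _ => sum_congr rfl fun b _ => sum_congr rfl fun a' _ =>
    sum_congr rfl fun b' _ => by ring

theorem rx_mul (M N : Matrix ((ι → A) × (ι → B)) ((ι → A) × (ι → B)) ℂ) :
    rx M * rx N = rx (M * N) :=
  submatrix_mul_equiv M N sp (spe (ι := ι) (A := A) (B := B)) sp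

theorem rx_trace (M : Matrix ((ι → A) × (ι → B)) ((ι → A) × (ι → B)) ℂ) :
    (rx M).trace = M.trace :=
  (spe (ι := ι) (A := A) (B := B)).sum_comp fun x => M x x

/-- the inverse of `rx` -/
def xr (M : Matrix (ι → A × B) (ι → A × B) ℂ) :
    Matrix ((ι → A) × (ι → B)) ((ι → A) × (ι → B)) ℂ :=
  M.submatrix (spe (ι := ι) (A := A) (B := B)).symm (spe (ι := ι) (A := A) (B := B)).symm

theorem rx_xr (M : Matrix (ι → A × B) (ι → A × B) ℂ) : rx (xr M) = M := by
  ext x y
  rfl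

theorem xr_rx (M : Matrix ((ι → A) × (ι → B)) ((ι → A) × (ι → B)) ℂ) : xr (rx M) = M := by
  ext x y
  rfl

theorem xr_blocks {X Z Y : Matrix (ι → A × B) (ι → A × B) ℂ}
    (h : (fromBlocks X Z Z Y).PosSemidef) : (fromBlocks (xr X) (xr Z) (xr Z) (xr Y)).PosSemidef := by
  have h1 := h.submatrix (Sum.map (spe (ι := ι) (A := A) (B := B)).symm
    (spe (ι := ι) (A := A) (B := B)).symm)
  have h2 : (fromBlocks X Z Z Y).submatrix (Sum.map (spe (ι := ι) (A := A) (B := B)).symm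
    (spe (ι := ι) (A := A) (B := B)).symm) (Sum.map (spe (ι := ι) (A := A) (B := B)).symm
    (spe (ι := ι) (A := A) (B := B)).symm) = fromBlocks (xr X) (xr Z) (xr Z) (xr Y) := by
    ext (i | i) (j | j) <;> rfl
  rw [h2] at h1
  exact h1

theorem choi_dk {C : Type} [Fintype C] [DecidableEq C] (s : Bool) :
    (choi (dk s : Ker C)).PosSemidef := by
  cases s
  · exact choi_opk PosSemidef.one
  · exact choi_idk

theorem ck_nonneg (s : Bool) : 0 ≤ ck s := by
  cases s
  · change (0 : ℂ) ≤ 2 / 3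
    rw [show (2 / 3 : ℂ) = ((2 / 3 : ℝ) : ℂ) by norm_num]
    exact_mod_cast (by norm_num : (0 : ℝ) ≤ 2 / 3)
  · change (0 : ℂ) ≤ 1 / 3
    rw [show (1 / 3 : ℂ) = ((1 / 3 : ℝ) : ℂ) by norm_num]
    exact_mod_cast (by norm_num : (0 : ℝ) ≤ 1 / 3)

/-- **KEY, additive form.** -/
theorem key_lin {Rh : Matrix (A × B) (A × B) ℂ} (h0 : Rh.PosSemidef)
    (h2 : ((2 : ℂ) • 1 - Rh).PosSemidef) {α₀ α₁ : Matrix (ι → A) (ι → A) ℂ}
    {β₀ β₁ : Matrix (ι → B) (ι → B) ℂ} (ha₀ : α₀.PosSemidef) (ha₁ : α₁.PosSemidef)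
    (hb₀ : β₀.PosSemidef) (hb₁ : β₁.PosSemidef)
    {Z : (ι → Bool) → Matrix (ι → A × B) (ι → A × B) ℂ}
    (h : ∀ τ, (fromBlocks (pmap (fun i => vk Rh (τ i)) (rx (α₀ ⊗ₖ β₀))) (Z τ) (Z τ)
      (pmap (fun i => vk Rh (τ i)) (rx (α₁ ⊗ₖ β₁)))).PosSemidef) :
    2 * ∑ τ, (Z τ).trace.re ≤
      (tp (fun _ : ι => (2 / 3 : ℂ) • 1 + (1 / 3 : ℂ) • Rh) * rx (α₀ ⊗ₖ β₁)).trace.re +
      (tp (fun _ : ι => (2 / 3 : ℂ) • 1 + (1 / 3 : ℂ) • Rh) * rx (α₁ ⊗ₖ β₀)).trace.re := by
  have hpost := post_blocks h2 h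
  have htr := post_trace Rh Z
  have hwk : ∀ s, (wk Rh s).PosSemidef := by
    intro s
    cases s
    · exact PosSemidef.one
    · exact h0
  -- the weights of the right-hand side
  have hw : ∀ X : Matrix (ι → A × B) (ι → A × B) ℂ,
      ∑ σ : ι → Bool, (tp (fun i => wk Rh (σ i)) * pmap (fun i => vk' (σ i)) X).trace =
      (tp (fun _ : ι => (2 / 3 : ℂ) • 1 + (1 / 3 : ℂ) • Rh) * X).trace := by
    intro X
    simp only [trace_tp_pmap]
    rw [← trace_sum, ← Matrix.sum_mul, tp_univ (fun _ s => adj (vk' s) (wk Rh s))]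
    simp only [sum_adj_vk']
  have hσ : ∀ σ : ι → Bool, 2 * (tp (fun i => wk Rh (σ i)) * post Rh Z σ).trace.re ≤
      (tp (fun i => wk Rh (σ i)) * pmap (fun i => vk' (σ i)) (rx (α₀ ⊗ₖ β₁))).trace.re +
      (tp (fun i => wk Rh (σ i)) * pmap (fun i => vk' (σ i)) (rx (α₁ ⊗ₖ β₀))).trace.re := by
    intro σ
    have hc : 0 ≤ ∏ i, ck (σ i) := Finset.prod_nonneg fun i _ => ck_nonneg (σ i)
    have hb := hpost σ
    rw [pmap_split, pmap_split] at hb
    have hb' := xr_blocks hb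
    rw [xr_rx, xr_rx] at hb'
    have hH : (xr (post Rh Z σ)).IsHermitian := by
      have h3 := hb'.isHermitian
      rw [Matrix.isHermitian_fromBlocks_iff] at h3
      exact h3.2.1
    have hM : (xr (tp (fun i => wk Rh (σ i)))).PosSemidef :=
      (tp_psd fun i => hwk (σ i)).submatrix _
    have h5 := Swap.core_lin
      ((pmap_psd _ (fun i => choi_dk (σ i)) ha₁).smul hc)
      ((pmap_psd _ (fun i => choi_dk (σ i)) ha₀).smul hc)
      (pmap_psd _ (fun i => choi_dk (σ i)) hb₁) (pmap_psd _ (fun i => choi_dk (σ i)) hb₀)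
      hH hb' hM
    rw [pmap_split, pmap_split]
    have h6 : ∀ (M : Matrix (ι → A × B) (ι → A × B) ℂ)
        (N : Matrix ((ι → A) × (ι → B)) ((ι → A) × (ι → B)) ℂ),
        (xr M * N).trace = (M * rx N).trace := by
      intro M N
      rw [← rx_trace, ← rx_mul, rx_xr]
    rw [h6, h6, h6, rx_xr] at h5
    linarith
  have hsum := Finset.sum_le_sum fun σ (_ : σ ∈ (univ : Finset (ι → Bool))) => hσ σ
  rw [← mul_sum, sum_add_distrib] at hsum
  rw [← Complex.re_sum, ← Complex.re_sum, ← Complex.re_sum, htr, hw, hw, Complex.re_sum] at hsum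
  exact hsum

end Prod

end Vale.Agent.P372.H289
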