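import Vale.Agent.P372.H289.Key
import Vale.Agent.P372.H116.Cont
import Vale.Agent.P372.H740.Scale
import Vale.Agent.P372.H897.CliffT

/-!
# The merge: the linear corner inequality for all numbers of copies
-/

set_option autoImplicit false
set_option linter.unusedSectionVars false

open Matrix Finset Kronecker
open scoped ComplexOrder

namespace Vale.Agent.P372.H289

section Noise

variable {ι C D : Type} [Fintype ι] [DecidableEq ι] [Fintype C] [DecidableEq C]
  [Fintype D] [DecidableEq D]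

/-- kernels in the order output, input -/
def fk (t : H897.Ker C) : Ker C := fun x y x' y' => t x' y' x y

theorem ap_pk (t : H897.Ker C) (X : Matrix (ι → C) (ι → C) ℂ) :
    H897.ap (H897.pk (ι := ι) t) X = pmap (fun _ => fk t) X := by
  ext x y
  simp only [H897.ap, H897.pk, pmap, fk]
  exact sum_congr rfl fun _ _ => sum_congr rfl fun _ _ => mul_comm _ _

/-- the map as a linear map -/
noncomputable def SL (t : H897.Ker D) : Matrix D D ℂ →ₗ[ℂ] Matrix D D ℂ where
  toFun := H897.ap t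
  map_add' := H897.ap_add t
  map_smul' := H897.ap_smul t

theorem noise {t : H897.Ker D} (h : H897.SF t) (hs : H897.SD t) (hu : H897.UN t)
    (hm : H897.HM t) : H116.Noise (SL t) where
  one := hu.one
  tr := H897.trace_preserving hs hu
  dual := hs.trace
  star := hm.conj
  pos2 := fun _ _ _ h' => H897.ap_blocks h.choi h'
  flip := h.coSchwarz

theorem cmp_fk {t : H897.Ker C} (hs : H897.SD t) (hu : H897.UN t) (Rh : Matrix C C ℂ) (s : Bool) :
    cmp (fk t) (vk (H897.ap t Rh) s) = cmp (vk Rh s) (fk t) := by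
  cases s
  · simp only [vk, cmp_smul_right, cmp_smul_left, cmp_idk_right, cmp_idk_left]
  · simp only [vk, cmp_smul_right, cmp_smul_left]
    congr 1
    funext x y x'' y''
    have h1 : cmp (fk t) (opk (H897.ap t Rh)) x y x'' y'' =
        (if x = y then 1 else 0) * (((Fintype.card C : ℕ) : ℂ)⁻¹ * H897.ap t Rh y'' x'') := by
      rw [← hu x y, sum_mul]
      refine sum_congr rfl fun a _ => ?_
      rw [sum_eq_single a]
      · simp [fk, opk]
      · intro b _ hb
        simp [opk, hb.symm]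
      · simp
    have h2 : cmp (opk Rh) (fk t) x y x'' y'' =
        (if x = y then ((Fintype.card C : ℕ) : ℂ)⁻¹ else 0) * H897.ap t Rh y'' x'' := by
      simp only [cmp, opk, fk, H897.ap, mul_sum]
      rw [sum_comm]
      refine sum_congr rfl fun a _ => sum_congr rfl fun b _ => ?_
      rw [hs a b y'' x'']
      ring
    rw [h1, h2]
    by_cases h : x = y <;> simp [h]

theorem adj_fk {t : H897.Ker C} (hs : H897.SD t) (M : Matrix C C ℂ) :
    adj (fk t) M = H897.ap t M := by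
  ext y' x'
  simp only [adj, fk, H897.ap]
  refine sum_congr rfl fun a _ => sum_congr rfl fun b _ => ?_
  rw [hs a b y' x']

theorem sum_adj_vk (G : Matrix C C ℂ) :
    ∑ s, adj (vk G s) 1 = (2 / 3 : ℂ) • 1 + (1 / 3 : ℂ) • G := by
  rw [Fintype.sum_bool]
  simp only [vk, adj_smul, adj_idk, adj_opk_one]
  rw [add_comm]

theorem sum_trace_vk (G : Matrix C C ℂ) (X : Matrix (ι → C) (ι → C) ℂ) :
    ∑ τ : ι → Bool, (pmap (fun i => vk G (τ i)) X).trace =
      (tp (fun _ : ι => (2 / 3 : ℂ) • 1 + (1 / 3 : ℂ) • G) * X).trace := by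
  have h1 : ∀ τ : ι → Bool, (pmap (fun i => vk G (τ i)) X).trace =
      (tp (fun i => adj (vk G (τ i)) 1) * X).trace := by
    intro τ
    rw [← trace_tp_pmap, tp_one, Matrix.one_mul]
  simp only [h1]
  rw [← trace_sum, ← Matrix.sum_mul, tp_univ (fun _ s => adj (vk G s) 1)]
  simp only [sum_adj_vk]

theorem choi_vk {G : Matrix C C ℂ} (hG : G.PosSemidef) (s : Bool) :
    (choi (vk G s)).PosSemidef := by
  have h3 : (0 : ℂ) ≤ 1 / 3 := by
    rw [show (1 / 3 : ℂ) = ((1 / 3 : ℝ) : ℂ) by norm_num]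
    exact_mod_cast (by norm_num : (0 : ℝ) ≤ 1 / 3)
  have h4 : (0 : ℂ) ≤ 2 / 3 := by
    rw [show (2 / 3 : ℂ) = ((2 / 3 : ℝ) : ℂ) by norm_num]
    exact_mod_cast (by norm_num : (0 : ℝ) ≤ 2 / 3)
  cases s
  · exact choi_idk.smul h4
  · exact (choi_opk hG).smul h3

theorem exists_lower {n : Type} [Fintype n] [DecidableEq n] [Nonempty n] {A : Matrix n n ℂ}
    (hA : A.PosDef) : ∃ e : ℝ, 0 < e ∧ (A - (e : ℂ) • (1 : Matrix n n ℂ)).PosSemidef := by
  obtain ⟨i0, hi0⟩ := Finite.exists_min hA.1.eigenvalues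
  refine ⟨hA.1.eigenvalues i0, hA.eigenvalues_pos i0, ?_⟩
  set U : Matrix n n ℂ := (hA.1.eigenvectorUnitary : Matrix n n ℂ) with hU
  have hUU : U * Uᴴ = 1 := by
    have := (hA.1.eigenvectorUnitary).2
    exact (Matrix.mem_unitaryGroup_iff.1 this)
  have hsp : A = U * diagonal (fun i => (hA.1.eigenvalues i : ℂ)) * Uᴴ := by
    have := hA.1.spectral_theorem
    simpa [Unitary.conjStarAlgAut_apply, Function.comp_def, hU,
      Matrix.star_eq_conjTranspose] using this
  have h1 : A - ((hA.1.eigenvalues i0 : ℝ) : ℂ) • (1 : Matrix n n ℂ) =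
      U * diagonal (fun i => ((hA.1.eigenvalues i - hA.1.eigenvalues i0 : ℝ) : ℂ)) * Uᴴ := by
    have h2 : (diagonal (fun i => ((hA.1.eigenvalues i - hA.1.eigenvalues i0 : ℝ) : ℂ)) :
        Matrix n n ℂ) = diagonal (fun i => (hA.1.eigenvalues i : ℂ)) -
          ((hA.1.eigenvalues i0 : ℝ) : ℂ) • (1 : Matrix n n ℂ) := by
      ext i j
      by_cases hij : i = j
      · subst hij
        simp
      · simp [hij]
    rw [h2, Matrix.mul_sub, Matrix.sub_mul, ← hsp, Matrix.mul_smul, Matrix.mul_one,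
      Matrix.smul_mul, hUU]
  rw [h1]
  refine PosSemidef.mul_mul_conjTranspose_same ?_ U
  refine Matrix.PosSemidef.diagonal fun i => ?_
  show (0 : ℂ) ≤ ((hA.1.eigenvalues i - hA.1.eigenvalues i0 : ℝ) : ℂ)
  exact_mod_cast sub_nonneg.2 (hi0 i)

theorem posDef_pmap (k : ι → Ker C) (hk : ∀ i, (choi (k i)).PosSemidef)
    (h1 : (pmap k 1).PosDef) {X : Matrix (ι → C) (ι → C) ℂ} (hX : X.PosDef) :
    (pmap k X).PosDef := by
  rcases isEmpty_or_nonempty (ι → C) with he | hne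
  · have h2 : pmap k X = X := Subsingleton.elim _ _
    rw [h2]
    exact hX
  · obtain ⟨e, he, hA⟩ := exists_lower hX
    have h2 := pmap_psd k hk hA
    have h3 : pmap k X = (e : ℂ) • pmap k 1 + pmap k (X - (e : ℂ) • 1) := by
      rw [← pmap_smul, ← pmap_add]
      congr 1
      abel
    rw [h3]
    exact (h1.smul (by exact_mod_cast he)).add_posSemidef h2

theorem pmap_tp (k : ι → Ker C) (M : ι → Matrix C C ℂ) :
    pmap k (tp M) = tp fun i => fun x y => ∑ a, ∑ b, k i x y a b * M i a b := by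
  ext x y
  simp only [pmap, tp, prod_sum2, prod_mul_distrib]

theorem tp_smul_one (c : ι → ℂ) : tp (fun i => c i • (1 : Matrix C C ℂ)) = (∏ i, c i) • 1 := by
  rw [← tp_one]
  ext x y
  simp only [tp, Matrix.smul_apply, smul_eq_mul, prod_mul_distrib]

/-- the factor of the identity -/
noncomputable def fc (G : Matrix C C ℂ) : Bool → ℂ
  | false => 2 / 3
  | true => 1 / 3 * (((Fintype.card C : ℕ) : ℂ)⁻¹ * G.trace)

theorem vk_one (G : Matrix C C ℂ) (s : Bool) :
    (fun x y => ∑ a, ∑ b, vk G s x y a b * (1 : Matrix C C ℂ) a b) =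
      fc G s • (1 : Matrix C C ℂ) := by
  funext x y
  have h1 : ∀ a, ∑ b, vk G s x y a b * (1 : Matrix C C ℂ) a b = vk G s x y a a := by
    intro a
    rw [sum_eq_single a]
    · simp
    · intro b _ hb
      rw [Matrix.one_apply_ne hb.symm, mul_zero]
    · simp
  simp only [h1]
  cases s
  · simp only [vk, fc, idk, Pi.smul_apply, smul_eq_mul, Matrix.smul_apply, Matrix.one_apply]
    rw [← mul_sum, sum_eq_single x]
    · by_cases h : x = y
      · simp [h]
      · simp [h, Ne.symm h]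
    · intro b _ hb
      simp [hb.symm]
    · simp
  · simp only [vk, fc, opk, Pi.smul_apply, smul_eq_mul, Matrix.smul_apply, Matrix.one_apply,
      Matrix.trace, Matrix.diag]
    rw [← mul_sum, ← mul_sum]
    by_cases h : x = y <;> simp [h]

/-- positive definite, or everything vanishes -/
theorem theta_cases {G : Matrix C C ℂ} (hG : G.PosSemidef) (τ : ι → Bool) :
    (∀ X : Matrix (ι → C) (ι → C) ℂ, X.PosDef → (pmap (fun i => vk G (τ i)) X).PosDef) ∨
      ∀ X : Matrix (ι → C) (ι → C) ℂ, pmap (fun i => vk G (τ i)) X = 0 := by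
  by_cases hc : ∃ i, τ i = true ∧ G.trace = 0
  · right
    obtain ⟨i, hi, hG0⟩ := hc
    have hG1 : G = 0 := hG.trace_eq_zero_iff.mp hG0
    intro X
    ext x y
    simp only [pmap, Matrix.zero_apply]
    refine sum_eq_zero fun x' _ => sum_eq_zero fun y' _ => ?_
    rw [prod_eq_zero (mem_univ i), zero_mul]
    rw [hi, hG1]
    simp [vk, opk]
  · left
    intro X hX
    rcases isEmpty_or_nonempty (ι → C) with he | hne
    · have h2 : pmap (fun i => vk G (τ i)) X = X := Subsingleton.elim _ _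
      rw [h2]
      exact hX
    refine posDef_pmap _ (fun i => choi_vk hG (τ i)) ?_ hX
    rw [← tp_one, pmap_tp]
    have h1 : (tp fun i => fun x y => ∑ a, ∑ b, vk G (τ i) x y a b * (1 : Matrix C C ℂ) a b) =
        tp fun i => fc G (τ i) • (1 : Matrix C C ℂ) := by
      congr 1
      funext i
      exact vk_one G (τ i)
    rw [h1, tp_smul_one]
    refine PosDef.one.smul (Finset.prod_pos fun i _ => ?_)
    have hC : Nonempty C := ⟨hne.some i⟩
    rcases hτ : τ i with _ | _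
    · change (0 : ℂ) < 2 / 3
      rw [show (2 / 3 : ℂ) = ((2 / 3 : ℝ) : ℂ) by norm_num]
      exact_mod_cast (by norm_num : (0 : ℝ) < 2 / 3)
    · change (0 : ℂ) < 1 / 3 * (((Fintype.card C : ℕ) : ℂ)⁻¹ * G.trace)
      have h0 : G.trace ≠ 0 := fun h => hc ⟨i, hτ, h⟩
      have h5 : 0 < G.trace := lt_of_le_of_ne hG.trace_nonneg h0.symm
      have h6 : (0 : ℂ) < 1 / 3 := by
        rw [show (1 / 3 : ℂ) = ((1 / 3 : ℝ) : ℂ) by norm_num]
        exact_mod_cast (by norm_num : (0 : ℝ) < 1 / 3)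
      have h7 : (0 : ℂ) < ((Fintype.card C : ℕ) : ℂ)⁻¹ := by
        rw [← Complex.ofReal_natCast, ← Complex.ofReal_inv]
        have : 0 < Fintype.card C := Fintype.card_pos
        exact_mod_cast inv_pos.mpr (Nat.cast_pos.mpr this)
      exact mul_pos h6 (mul_pos h7 h5)

end Noise

section Merge

variable {ι A B : Type} [Fintype ι] [DecidableEq ι] [Fintype A] [DecidableEq A]
  [Fintype B] [DecidableEq B]

theorem pmap_fk_rx (tA : H897.Ker A) (tB : H897.Ker B) (α : Matrix (ι → A) (ι → A) ℂ)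
    (β : Matrix (ι → B) (ι → B) ℂ) :
    pmap (fun _ : ι => fk (H897.kt tA tB)) (rx (α ⊗ₖ β)) =
      rx (pmap (fun _ : ι => fk tA) α ⊗ₖ pmap (fun _ : ι => fk tB) β) := by
  ext x y
  set G : (ι → A) × (ι → B) → (ι → A) × (ι → B) → ℂ := fun p q =>
    (∏ i, (fk tA) (x i).1 (y i).1 (p.1 i) (q.1 i)) *
      (∏ i, (fk tB) (x i).2 (y i).2 (p.2 i) (q.2 i)) * (α p.1 q.1 * β p.2 q.2) with hG
  have h1 : pmap (fun _ : ι => fk (H897.kt tA tB)) (rx (α ⊗ₖ β)) x y =
      ∑ x' : ι → A × B, ∑ y' : ι → A × B, G (sp x') (sp y') := by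
    simp only [pmap, hG, ← prod_mul_distrib]
    rfl
  rw [h1]
  have h2 : ∀ p, ∑ y' : ι → A × B, G p (sp y') = ∑ a, ∑ b, G p (a, b) := fun p => sum_spe (G p)
  simp only [h2]
  rw [sum_spe fun p => ∑ a, ∑ b, G p (a, b)]
  have h3 : rx (pmap (fun _ : ι => fk tA) α ⊗ₖ pmap (fun _ : ι => fk tB) β) x y =
      ((∑ a, ∑ a', (∏ i, (fk tA) (x i).1 (y i).1 (a i) (a' i)) *
        α a a') * ∑ b, ∑ b', (∏ i, (fk tB) (x i).2 (y i).2 (b i) (b' i)) *
        β b b') := by
    simp only [rx, submatrix_apply, kroneckerMap_apply, sp, pmap]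
  rw [h3, ← sum4_mul]
  simp only [hG]
  exact sum_congr rfl fun a _ => sum_congr rfl fun b _ => sum_congr rfl fun a' _ =>
    sum_congr rfl fun b' _ => by ring

theorem rx_tpow (n : ℕ) (R : Matrix (A × B) (A × B) ℂ) :
    rx (tpow n R) = tp fun _ : Fin n => R := by
  ext x y
  rfl

theorem trace_rx (n : ℕ) (R : Matrix (A × B) (A × B) ℂ)
    (C : Matrix ((Fin n → A) × (Fin n → B)) ((Fin n → A) × (Fin n → B)) ℂ) :
    (tpow n R * C).trace = (tp (fun _ : Fin n => R) * rx C).trace := by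
  rw [← rx_trace, ← rx_mul, rx_tpow]

/-- The couplings after the noise. -/
theorem couplings {t : H897.Ker (A × B)} (hSF : H897.SF t) (hSD : H897.SD t) (hUN : H897.UN t)
    (hHM : H897.HM t) {Rh : Matrix (A × B) (A × B) ℂ} (h0 : Rh.PosSemidef)
    {X K Y : Matrix (ι → A × B) (ι → A × B) ℂ} (hX : X.PosDef)
    (h : (fromBlocks X K Kᴴ Y).PosSemidef) (τ : ι → Bool) :
    ∃ Z : Matrix (ι → A × B) (ι → A × B) ℂ,
      (fromBlocks (pmap (fun i => vk Rh (τ i)) (pmap (fun _ => fk t) X)) Z Z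
        (pmap (fun i => vk Rh (τ i)) (pmap (fun _ => fk t) Y))).PosSemidef ∧
      ∀ μ : ℝ, 4 * μ * (pmap (fun i => vk (H897.ap t Rh) (τ i)) K).trace.re -
        2 * μ ^ 2 * ((pmap (fun i => vk (H897.ap t Rh) (τ i)) X).trace.re +
          (pmap (fun i => vk (H897.ap t Rh) (τ i)) Y).trace.re) ≤ Z.trace.re := by
  set G := H897.ap t Rh with hGd
  have hG : G.PosSemidef := H897.ap_psd hSF.choi h0
  have hcomm : ∀ X : Matrix (ι → A × B) (ι → A × B) ℂ,
      pmap (fun i => vk Rh (τ i)) (pmap (fun _ => fk t) X) =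
        SL (H897.pk (ι := ι) t) (pmap (fun i => vk G (τ i)) X) := by
    intro X
    change _ = H897.ap (H897.pk (ι := ι) t) _
    rw [ap_pk, pmap_pmap, pmap_pmap]
    simp only [hGd, cmp_fk hSD hUN]
  have hN : H116.Noise (SL (H897.pk (ι := ι) t)) := noise hSF.pk hSD.pk hUN.pk hHM.pk
  have hb := pmap_blocks (fun i => vk G (τ i)) (fun i => choi_vk hG (τ i)) h
  have hc : (pmap (fun i => vk G (τ i)) K)ᴴ = pmap (fun i => vk G (τ i)) Kᴴ := by
    have h3 := hb.isHermitian
    rw [Matrix.isHermitian_fromBlocks_iff] at h3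
    exact h3.2.1
  rw [← hc] at hb
  rcases theta_cases hG τ with hp | hz
  · obtain ⟨Z, -, hZ, hZ'⟩ := H116.corner_mu hN (hp X hX) hb
    refine ⟨Z, ?_, hZ'⟩
    rw [hcomm, hcomm]
    exact hZ
  · refine ⟨0, ?_, ?_⟩
    · rw [hcomm, hcomm, hz, hz, map_zero, fromBlocks_zero]
      exact PosSemidef.zero
    · intro μ
      rw [hz, hz, hz]
      simp

/-- **The merge.** -/
theorem merge {tA : H897.Ker A} {tB : H897.Ker B} (hA : H897.SF tA) (hB : H897.SF tB)
    (sA : H897.SD tA) (sB : H897.SD tB) (uA : H897.UN tA) (uB : H897.UN tB) (mA : H897.HM tA)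
    (mB : H897.HM tB) {Rh : Matrix (A × B) (A × B) ℂ} (h0 : Rh.PosSemidef)
    (h2 : ((2 : ℂ) • 1 - Rh).PosSemidef) (n : ℕ) :
    H740.CornerLin (tpow n ((2 / 3 : ℂ) • 1 + (1 / 3 : ℂ) • H897.ap (H897.kt tA tB) Rh)) := by
  intro a₀ a₁ b₀ b₁ K μ ha₀ ha₁ hb₀ hb₁ hK
  set t := H897.kt tA tB with ht
  have hSF : H897.SF t := hA.kt hB
  have hSD : H897.SD t := sA.kt sB
  have hUN : H897.UN t := uA.kt uB
  have hHM : H897.HM t := mA.kt mB
  have hX : (rx (a₀ ⊗ₖ b₀)).PosDef :=
    (ha₀.kronecker hb₀).submatrix (spe (ι := Fin n) (A := A) (B := B)).injective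
  have hblk : (fromBlocks (rx (a₀ ⊗ₖ b₀)) (rx K) (rx K)ᴴ (rx (a₁ ⊗ₖ b₁))).PosSemidef := by
    have h3 := hK.submatrix (Sum.map (sp (ι := Fin n) (A := A) (B := B)) sp)
    have h4 : (fromBlocks (a₀ ⊗ₖ b₀) K Kᴴ (a₁ ⊗ₖ b₁)).submatrix
        (Sum.map (sp (ι := Fin n) (A := A) (B := B)) sp) (Sum.map sp sp) =
        fromBlocks (rx (a₀ ⊗ₖ b₀)) (rx K) (rx K)ᴴ (rx (a₁ ⊗ₖ b₁)) := by
      ext (i | i) (j | j) <;> rfl
    rw [h4] at h3
    exact h3
  choose Z hZ hZ' using fun τ : Fin n → Bool => couplings hSF hSD hUN hHM h0 hX hblk τ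
  have hkA : ∀ {a : Matrix (Fin n → A) (Fin n → A) ℂ}, a.PosDef →
      (pmap (fun _ : Fin n => fk tA) a).PosSemidef := by
    intro a ha
    rw [← ap_pk]
    exact H897.ap_psd hA.pk.choi ha.posSemidef
  have hkB : ∀ {b : Matrix (Fin n → B) (Fin n → B) ℂ}, b.PosDef →
      (pmap (fun _ : Fin n => fk tB) b).PosSemidef := by
    intro b hb
    rw [← ap_pk]
    exact H897.ap_psd hB.pk.choi hb.posSemidef
  have hkey := key_lin h0 h2 (hkA ha₀) (hkA ha₁) (hkB hb₀) (hkB hb₁) (Z := Z) (by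
    intro τ
    rw [← pmap_fk_rx, ← pmap_fk_rx]
    exact hZ τ)
  -- the right-hand side
  have hobs : ∀ X : Matrix (Fin n → A × B) (Fin n → A × B) ℂ,
      (tp (fun _ : Fin n => (2 / 3 : ℂ) • 1 + (1 / 3 : ℂ) • Rh) *
        pmap (fun _ => fk t) X).trace =
      (tp (fun _ : Fin n => (2 / 3 : ℂ) • 1 + (1 / 3 : ℂ) • H897.ap t Rh) * X).trace := by
    intro X
    rw [trace_tp_pmap]
    simp only [adj_fk hSD, H897.ap_add, H897.ap_smul, hUN.one]
  rw [← pmap_fk_rx, ← pmap_fk_rx, hobs, hobs] at hkey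
  -- the left-hand side
  have hsum := Finset.sum_le_sum fun τ (_ : τ ∈ (univ : Finset (Fin n → Bool))) => hZ' τ μ
  rw [sum_sub_distrib, ← mul_sum, ← mul_sum, sum_add_distrib, ← Complex.re_sum, ← Complex.re_sum,
    ← Complex.re_sum, sum_trace_vk, sum_trace_vk, sum_trace_vk] at hsum
  simp only [trace_rx]
  linarith

end Merge

end Vale.Agent.P372.H289
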