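import Mathlib

/-!
# Site maps on `n` sites

`pmap k` is the tensor product of the one-site maps with kernels `k i`, on matrices indexed by
`ι → C`.  `opk Q` is the kernel of `X ↦ tr (Q X) ⊗ 1 / d`, `idk` the kernel of the identity.
-/

set_option autoImplicit false
set_option linter.unusedSectionVars false

open Matrix Finset
open scoped ComplexOrder

namespace Vale.Agent.P372.H289

section Basic

variable {ι C D : Type} [Fintype ι] [DecidableEq ι] [Fintype C] [DecidableEq C]
  [Fintype D] [DecidableEq D]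

/-- kernels of maps of one-site matrices -/
abbrev Ker (C : Type) := C → C → C → C → ℂ

/-- the tensor product of the one-site maps -/
def pmap (k : ι → Ker C) (X : Matrix (ι → C) (ι → C) ℂ) : Matrix (ι → C) (ι → C) ℂ :=
  fun x y => ∑ x', ∑ y', (∏ i, k i (x i) (y i) (x' i) (y' i)) * X x' y'

/-- the tensor product of one-site matrices -/
def tp (M : ι → Matrix C C ℂ) : Matrix (ι → C) (ι → C) ℂ := fun x y => ∏ i, M i (x i) (y i)

/-- the kernel of the identity -/
def idk : Ker C := fun x y x' y' => (if x = x' then 1 else 0) * (if y = y' then 1 else 0)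

/-- the kernel of `X ↦ tr (Q X) ⊗ 1 / d` -/
noncomputable def opk (Q : Matrix C C ℂ) : Ker C :=
  fun x y x' y' => (if x = y then ((Fintype.card C : ℕ) : ℂ)⁻¹ else 0) * Q y' x'

/-- composition of kernels -/
def cmp (k k' : Ker C) : Ker C := fun x y x'' y'' => ∑ x', ∑ y', k x y x' y' * k' x' y' x'' y''

/-- the adjoint kernel, acting on observables -/
def adj (k : Ker C) (M : Matrix C C ℂ) : Matrix C C ℂ :=
  fun y' x' => ∑ a, ∑ b, M a b * k b a x' y'

theorem prod_sum2 (f : ι → C → D → ℂ) :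
    ∏ i, ∑ a, ∑ b, f i a b = ∑ x : ι → C, ∑ y : ι → D, ∏ i, f i (x i) (y i) := by
  rw [Finset.prod_univ_sum, Fintype.piFinset_univ]
  refine sum_congr rfl fun x _ => ?_
  rw [Finset.prod_univ_sum, Fintype.piFinset_univ]

theorem pmap_add (k : ι → Ker C) (X Y : Matrix (ι → C) (ι → C) ℂ) :
    pmap k (X + Y) = pmap k X + pmap k Y := by
  ext x y
  simp only [pmap, Matrix.add_apply, mul_add, sum_add_distrib]

theorem pmap_smul (k : ι → Ker C) (c : ℂ) (X : Matrix (ι → C) (ι → C) ℂ) :
    pmap k (c • X) = c • pmap k X := by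
  ext x y
  simp only [pmap, Matrix.smul_apply, smul_eq_mul, mul_sum]
  exact sum_congr rfl fun _ _ => sum_congr rfl fun _ _ => by ring

/-- `pmap k` as a linear map -/
def pmapL (k : ι → Ker C) : Matrix (ι → C) (ι → C) ℂ →ₗ[ℂ] Matrix (ι → C) (ι → C) ℂ where
  toFun := pmap k
  map_add' := pmap_add k
  map_smul' := pmap_smul k

theorem pmap_sum {κ : Type*} (s : Finset κ) (k : ι → Ker C)
    (X : κ → Matrix (ι → C) (ι → C) ℂ) : pmap k (∑ j ∈ s, X j) = ∑ j ∈ s, pmap k (X j) :=
  map_sum (pmapL k) X s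

theorem sum4_comm {α β γ δ : Type*} [Fintype α] [Fintype β] [Fintype γ] [Fintype δ]
    (f : α → β → γ → δ → ℂ) :
    ∑ a, ∑ b, ∑ c, ∑ d, f a b c d = ∑ c, ∑ d, ∑ a, ∑ b, f a b c d := by
  calc ∑ a, ∑ b, ∑ c, ∑ d, f a b c d = ∑ a, ∑ c, ∑ b, ∑ d, f a b c d :=
        sum_congr rfl fun a _ => sum_comm
    _ = ∑ c, ∑ a, ∑ b, ∑ d, f a b c d := sum_comm
    _ = ∑ c, ∑ a, ∑ d, ∑ b, f a b c d :=
        sum_congr rfl fun c _ => sum_congr rfl fun a _ => sum_comm
    _ = ∑ c, ∑ d, ∑ a, ∑ b, f a b c d := sum_congr rfl fun c _ => sum_comm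

theorem pmap_pmap (k k' : ι → Ker C) (X : Matrix (ι → C) (ι → C) ℂ) :
    pmap k (pmap k' X) = pmap (fun i => cmp (k i) (k' i)) X := by
  ext x y
  simp only [pmap, cmp, prod_sum2, mul_sum, sum_mul]
  rw [sum4_comm]
  refine sum_congr rfl fun x'' _ => sum_congr rfl fun y'' _ => sum_congr rfl fun x' _ =>
    sum_congr rfl fun y' _ => ?_
  rw [prod_mul_distrib]
  ring

theorem cmp_idk_left (k : Ker C) : cmp idk k = k := by
  funext x y x'' y''
  simp only [cmp, idk]
  rw [sum_eq_single x, sum_eq_single y]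
  · simp
  · intro b _ hb
    simp [hb.symm]
  · simp
  · intro b _ hb
    simp [hb.symm]
  · simp

theorem cmp_idk_right (k : Ker C) : cmp k idk = k := by
  funext x y x'' y''
  simp only [cmp, idk]
  rw [sum_eq_single x'', sum_eq_single y'']
  · simp
  · intro b _ hb
    simp [hb]
  · simp
  · intro b _ hb
    simp [hb]
  · simp

theorem opk_add (Q Q' : Matrix C C ℂ) : (opk (Q + Q') : Ker C) = opk Q + opk Q' := by
  funext x y x' y'
  simp only [opk, Matrix.add_apply, Pi.add_apply, mul_add]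

theorem opk_smul (c : ℂ) (Q : Matrix C C ℂ) : (opk (c • Q) : Ker C) = c • opk Q := by
  funext x y x' y'
  simp only [opk, Matrix.smul_apply, Pi.smul_apply, smul_eq_mul]
  ring

/-- expansion over the subsets of `S` -/
theorem pmap_expand (S : Finset ι) (f g h : ι → Ker C) (X : Matrix (ι → C) (ι → C) ℂ) :
    ∑ U ∈ S.powerset, pmap (fun i => if i ∈ U then f i else if i ∈ S then g i else h i) X =
      pmap (fun i => if i ∈ S then f i + g i else h i) X := by
  ext x y
  rw [Matrix.sum_apply]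
  simp only [pmap]
  rw [sum_comm]
  refine sum_congr rfl fun x' _ => ?_
  rw [sum_comm]
  refine sum_congr rfl fun y' _ => ?_
  rw [← sum_mul]
  congr 1
  have h1 : ∀ U ∈ S.powerset, (∏ i, (if i ∈ U then f i else if i ∈ S then g i else h i)
      (x i) (y i) (x' i) (y' i)) = ((∏ i ∈ U, f i (x i) (y i) (x' i) (y' i)) *
      ∏ i ∈ S \ U, g i (x i) (y i) (x' i) (y' i)) *
      ∏ i ∈ Sᶜ, h i (x i) (y i) (x' i) (y' i) := by
    intro U hU
    rw [mem_powerset] at hU
    rw [← prod_mul_prod_compl S, ← prod_sdiff hU, mul_comm (∏ i ∈ S \ U, _)]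
    refine congr_arg₂ _ (congr_arg₂ _ ?_ ?_) ?_
    · exact prod_congr rfl fun i hi => by rw [if_pos hi]
    · refine prod_congr rfl fun i hi => ?_
      rw [mem_sdiff] at hi
      rw [if_neg hi.2, if_pos hi.1]
    · refine prod_congr rfl fun i hi => ?_
      rw [mem_compl] at hi
      rw [if_neg (fun h => hi (hU h)), if_neg hi]
  rw [sum_congr rfl h1, ← sum_mul, ← prod_add, ← prod_mul_prod_compl S]
  refine congr_arg₂ _ ?_ ?_
  · exact prod_congr rfl fun i hi => by rw [if_pos hi]; rfl
  · refine prod_congr rfl fun i hi => ?_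
    rw [mem_compl] at hi
    rw [if_neg hi]

theorem tp_expand (S : Finset ι) (f g h : ι → Matrix C C ℂ) :
    ∑ U ∈ S.powerset, tp (fun i => if i ∈ U then f i else if i ∈ S then g i else h i) =
      tp (fun i => if i ∈ S then f i + g i else h i) := by
  ext x y
  rw [Matrix.sum_apply]
  simp only [tp]
  have h1 : ∀ U ∈ S.powerset, (∏ i, (if i ∈ U then f i else if i ∈ S then g i else h i)
      (x i) (y i)) = ((∏ i ∈ U, f i (x i) (y i)) *
      ∏ i ∈ S \ U, g i (x i) (y i)) * ∏ i ∈ Sᶜ, h i (x i) (y i) := by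
    intro U hU
    rw [mem_powerset] at hU
    rw [← prod_mul_prod_compl S, ← prod_sdiff hU, mul_comm (∏ i ∈ S \ U, _)]
    refine congr_arg₂ _ (congr_arg₂ _ ?_ ?_) ?_
    · exact prod_congr rfl fun i hi => by rw [if_pos hi]
    · refine prod_congr rfl fun i hi => ?_
      rw [mem_sdiff] at hi
      rw [if_neg hi.2, if_pos hi.1]
    · refine prod_congr rfl fun i hi => ?_
      rw [mem_compl] at hi
      rw [if_neg (fun h => hi (hU h)), if_neg hi]
  rw [sum_congr rfl h1, ← sum_mul, ← prod_add, ← prod_mul_prod_compl S]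
  refine congr_arg₂ _ ?_ ?_
  · exact prod_congr rfl fun i hi => by rw [if_pos hi]; rfl
  · refine prod_congr rfl fun i hi => ?_
    rw [mem_compl] at hi
    rw [if_neg hi]

/-- the trace against a tensor product, Heisenberg picture -/
theorem trace_tp_pmap (M : ι → Matrix C C ℂ) (k : ι → Ker C) (X : Matrix (ι → C) (ι → C) ℂ) :
    (tp M * pmap k X).trace = (tp (fun i => adj (k i) (M i)) * X).trace := by
  simp only [Matrix.trace, Matrix.diag, Matrix.mul_apply, pmap, tp, adj, prod_sum2, mul_sum,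
    sum_mul]
  rw [sum4_comm]
  rw [sum_comm]
  refine sum_congr rfl fun y' _ => sum_congr rfl fun x' _ => sum_congr rfl fun a _ =>
    sum_congr rfl fun b _ => ?_
  rw [prod_mul_distrib]
  ring

theorem adj_idk (M : Matrix C C ℂ) : adj idk M = M := by
  ext y' x'
  simp only [adj, idk]
  rw [sum_eq_single y', sum_eq_single x']
  · simp
  · intro b _ hb
    simp [hb]
  · simp
  · intro b _ hb
    simp [hb]
  · simp

theorem adj_opk_one (Q : Matrix C C ℂ) : adj (opk Q) 1 = Q := by
  ext y' x'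
  have hC : ((Fintype.card C : ℕ) : ℂ) ≠ 0 := by
    have : Nonempty C := ⟨y'⟩
    exact_mod_cast Fintype.card_ne_zero
  simp only [adj, opk, Matrix.one_apply]
  have h1 : ∀ a : C, ∑ b, (if a = b then (1 : ℂ) else 0) *
      ((if b = a then ((Fintype.card C : ℕ) : ℂ)⁻¹ else 0) * Q y' x') =
      ((Fintype.card C : ℕ) : ℂ)⁻¹ * Q y' x' := by
    intro a
    rw [sum_eq_single a]
    · simp
    · intro b _ hb
      simp [hb.symm]
    · simp
  rw [sum_congr rfl fun a _ => h1 a, sum_const, card_univ, nsmul_eq_mul]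
  field_simp

end Basic

end Vale.Agent.P372.H289
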